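import Mathlib

/-!
MODULE B3 (P037 blow-up closure).  FROZEN statement, (filled).  Pure finite counting.

STATEMENT.  For an injective `σ : I → J` the restriction map `g ↦ g ∘ σ`, `(J → X) → (I → X)`, has
all fibres of the same size, hence `#{g | g ∘ σ ∈ C} * |X| ^ |I| = |C| * |X| ^ |J|`.

ROUTE.  `(J → X) ≃ ({j // j ∈ Set.range σ} → X) × ({j // j ∉ Set.range σ} → X)`
(`Equiv.piEquivPiSubtypeProd`), and `{j // j ∈ Set.range σ} ≃ I` (`Equiv.ofInjective`), so
`(J → X) ≃ (I → X) × (R → X)` with first component `g ∘ σ`; the set becomes `C ×ˢ univ`;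
`|J| = |I| + |R|`.
-/

namespace Vale.Agent.Lib.P037.Blow

theorem base_count {I J X : Type*} [Fintype I] [Fintype J] [Fintype X]
    (σ : I → J) (hσ : Function.Injective σ) (C : Set (I → X)) :
    {g : J → X | g ∘ σ ∈ C}.ncard * Fintype.card X ^ Fintype.card I
      = C.ncard * Fintype.card X ^ Fintype.card J := by
  classical
  let e1 : (J → X) ≃ ({j // j ∈ Set.range σ} → X) × ({j // ¬ j ∈ Set.range σ} → X) :=
    Equiv.piEquivPiSubtypeProd (fun j => j ∈ Set.range σ) (fun _ => X)
  let e2 : ({j // j ∈ Set.range σ} → X) ≃ (I → X) :=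
    Equiv.arrowCongr (Equiv.ofInjective σ hσ).symm (Equiv.refl X)
  let e : (J → X) ≃ (I → X) × ({j // ¬ j ∈ Set.range σ} → X) :=
    e1.trans (Equiv.prodCongr e2 (Equiv.refl _))
  have hfst : ∀ g, (e g).1 = g ∘ σ := by
    intro g
    funext i
    simp [e, e1, e2, Equiv.piEquivPiSubtypeProd, Equiv.arrowCongr]
  have himg : e '' {g : J → X | g ∘ σ ∈ C}
      = C ×ˢ (Set.univ : Set ({j // ¬ j ∈ Set.range σ} → X)) := by
    ext p
    constructor
    · rintro ⟨g, hg, rfl⟩
      refine ⟨?_, Set.mem_univ _⟩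
      rw [hfst]
      exact hg
    · rintro ⟨hp, -⟩
      refine ⟨e.symm p, ?_, by simp⟩
      have := hfst (e.symm p)
      simp only [Equiv.apply_symm_apply] at this
      show (e.symm p) ∘ σ ∈ C
      rw [← this]
      exact hp
  have h1 : {g : J → X | g ∘ σ ∈ C}.ncard
      = (C ×ˢ (Set.univ : Set ({j // ¬ j ∈ Set.range σ} → X))).ncard := by
    rw [← himg, Set.ncard_image_of_injective _ e.injective]
  have hcard : Fintype.card J
      = Fintype.card I + Fintype.card {j // ¬ j ∈ Set.range σ} := by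
    have h2 : Fintype.card J = Fintype.card ({j // j ∈ Set.range σ} ⊕ {j // ¬ j ∈ Set.range σ}) :=
      (Fintype.card_congr (Equiv.sumCompl (fun j => j ∈ Set.range σ))).symm
    have h3 : Fintype.card {j // j ∈ Set.range σ} = Fintype.card I :=
      (Fintype.card_congr (Equiv.ofInjective σ hσ)).symm
    rw [h2, Fintype.card_sum, h3]
  rw [h1, Set.ncard_prod, Set.ncard_univ, Nat.card_eq_fintype_card, Fintype.card_fun, hcard, pow_add]
  ring

end Vale.Agent.Lib.P037.Blow
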