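import Vale.Agent.Lib.P037.Blow.Defs

/-!
MODULE B1 (P037 blow-up closure).  FROZEN statements, (filled).

ROUTE.
* `isFree_blow`: given a copy `p` of `blow H0 φ ψ` in `A`, take sections `s := Function.surjInv hφs`,
  `t := Function.surjInv hψs`.  A section of a monotone map is strictly monotone
  (if `a < b` and `s b ≤ s a` then `b = φ (s b) ≤ φ (s a) = a`).  Then `(p.1 ∘ s, p.2 ∘ t)` is a copy
  of `H0`:  `A (p.1 (s a)) (p.2 (t b)) = H0 (φ (s a)) (ψ (t b)) = H0 a b`.
* `isFar_of_blow`: unfold `IsFar`, use `isFree_blow`.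
* `one_le_numCopies_of_isFar`: if there were no copy, `A` would be free, so
  `ε * n ^ 2 ≤ numDiff A A = 0`, contradiction.  The set of copies is finite (finite type), so a
  nonempty set has `ncard ≥ 1` (`Set.ncard_pos`).
* `copySet_ncard`: the equivalence `Equiv.sumArrowEquivProdArrow` maps `copySet` onto the set of
  copies (`Set.ncard_image_of_injective` or `Set.ncard_congr`).
-/

namespace Vale.Agent.Lib.P037.Blow

open Vale.Agent.Lib.P037

private theorem strictMono_surjInv {k0 k : ℕ} (φ : Fin k → Fin k0) (hφ : Monotone φ)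
    (hφs : Function.Surjective φ) : StrictMono (Function.surjInv hφs) := by
  intro a b hab
  by_contra hcon
  have hle : Function.surjInv hφs b ≤ Function.surjInv hφs a := not_lt.mp hcon
  have h1 := hφ hle
  rw [Function.surjInv_eq hφs, Function.surjInv_eq hφs] at h1
  exact absurd hab (not_lt.mpr h1)

theorem isFree_blow {k0 k n : ℕ} (H0 : Fin k0 → Fin k0 → Bool) (φ ψ : Fin k → Fin k0)
    (hφ : Monotone φ) (hφs : Function.Surjective φ) (hψ : Monotone ψ)
    (hψs : Function.Surjective ψ) (A : Fin n → Fin n → Bool) (h : IsFree H0 A) :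
    IsFree (blow H0 φ ψ) A := by
  intro p hp
  obtain ⟨h1, h2, h3⟩ := hp
  apply h (p.1 ∘ Function.surjInv hφs, p.2 ∘ Function.surjInv hψs)
  refine ⟨h1.comp (strictMono_surjInv φ hφ hφs), h2.comp (strictMono_surjInv ψ hψ hψs), ?_⟩
  intro i j
  have := h3 (Function.surjInv hφs i) (Function.surjInv hψs j)
  simp only [blow, Function.surjInv_eq hφs, Function.surjInv_eq hψs] at this
  simpa using this

theorem isFar_of_blow {k0 k n : ℕ} (H0 : Fin k0 → Fin k0 → Bool) (φ ψ : Fin k → Fin k0)
    (hφ : Monotone φ) (hφs : Function.Surjective φ) (hψ : Monotone ψ)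
    (hψs : Function.Surjective ψ) (A : Fin n → Fin n → Bool) (ε : ℝ)
    (h : IsFar (blow H0 φ ψ) A ε) : IsFar H0 A ε := by
  intro B hB
  exact h B (isFree_blow H0 φ ψ hφ hφs hψ hψs B hB)

theorem one_le_numCopies_of_isFar {k n : ℕ} (H : Fin k → Fin k → Bool)
    (A : Fin n → Fin n → Bool) (ε : ℝ) (hn : 1 ≤ n) (hε : 0 < ε) (h : IsFar H A ε) :
    1 ≤ numCopies H A := by
  by_contra hcon
  have h0 : numCopies H A = 0 := by omega
  have hfree : IsFree H A := by
    intro p hp
    have hfin : {p | IsCopy H A p}.Finite := Set.toFinite _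
    have hpos : 0 < {p | IsCopy H A p}.ncard := (Set.ncard_pos hfin).mpr ⟨p, hp⟩
    unfold numCopies at h0
    omega
  have h1 := h A hfree
  have h2 : numDiff A A = 0 := by
    unfold numDiff
    simp
  rw [h2] at h1
  have hnpos : (0 : ℝ) < (n : ℝ) ^ 2 := by
    have : (0 : ℝ) < n := by exact_mod_cast hn
    positivity
  have : 0 < ε * (n : ℝ) ^ 2 := mul_pos hε hnpos
  simp at h1
  linarith

theorem copySet_ncard {k0 n : ℕ} (H0 : Fin k0 → Fin k0 → Bool) (A : Fin n → Fin n → Bool) :
    (copySet H0 A).ncard = numCopies H0 A := by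
  unfold numCopies
  apply Set.ncard_congr (fun g _ => (fun a => g (Sum.inl a), fun b => g (Sum.inr b)))
  · intro g hg
    exact hg
  · intro g g' _ _ hgg
    funext x
    have h1 := congrArg Prod.fst hgg
    have h2 := congrArg Prod.snd hgg
    cases x with
    | inl a => exact congrFun h1 a
    | inr b => exact congrFun h2 b
  · intro p hp
    refine ⟨Sum.elim p.1 p.2, ?_, ?_⟩
    · show IsCopy H0 A _
      simpa using hp
    · simp

end Vale.Agent.Lib.P037.Blow
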