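import Mathlib
import Vale.Agent.Lib.P037.Defs

/-!
P037, blow-up closure: definitions.

`blow H0 φ ψ` is the ordered blow-up of the pattern `H0` along `φ` (rows) and `ψ` (columns).
`GS Φ C S` is the set of all `g : J → X` such that every section `σ` of `Φ : J → I` with values
in `S` has `g ∘ σ ∈ C` (complete multipartite configurations over `C`).
`copySet H0 A` is the set of ordered copies of `H0` in `A`, written as functions on a sum type.
-/

namespace Vale.Agent.Lib.P037.Blow

open Vale.Agent.Lib.P037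

/-- ordered blow-up of the pattern `H0` -/
def blow {k0 k : ℕ} (H0 : Fin k0 → Fin k0 → Bool) (φ ψ : Fin k → Fin k0) :
    Fin k → Fin k → Bool :=
  fun i j => H0 (φ i) (ψ j)

/-- all `g : J → X` all of whose transversals inside `S` lie in `C` -/
def GS {I J X : Type*} (Φ : J → I) (C : Set (I → X)) (S : Set J) : Set (J → X) :=
  {g | ∀ σ : I → J, (∀ i, Φ (σ i) = i) → (∀ i, σ i ∈ S) → g ∘ σ ∈ C}

/-- ordered copies of `H0` in `A` as functions on `Fin k0 ⊕ Fin k0` (rows, columns) -/
def copySet {k0 n : ℕ} (H0 : Fin k0 → Fin k0 → Bool) (A : Fin n → Fin n → Bool) :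
    Set ((Fin k0 ⊕ Fin k0) → Fin n) :=
  {c | IsCopy H0 A (c ∘ Sum.inl, c ∘ Sum.inr)}

end Vale.Agent.Lib.P037.Blow
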