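import Mathlib

/-!
MODULE B5 (P037 blow-up closure).  FROZEN statement, (filled).  Pure finite counting.

STATEMENT.  Among the `n ^ (2 k)` functions `g : Fin k ⊕ Fin k → Fin n`, at most
`2 k ^ 2 n ^ (2 k - 1)` fail to be injective on the left copy or on the right copy.

ROUTE.  For `a ≠ b` in a fintype `J`: `#{g : J → X | g a = g b} * |X| = |X| ^ |J|`
(e.g. `g ↦ (g with coordinate a forgotten)` is a bijection onto `{j // j ≠ a} → X`;
`Equiv.funSplitAt`), or the weaker `≤`, which is enough.  The degenerate set is contained in the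
union over the `≤ k ^ 2` pairs `(a, b)`, `a ≠ b`, of `{g | g (inl a) = g (inl b)}` and the same with
`inr`; use `Set.ncard_union_le` / `Finset.card_biUnion_le`.  `Fintype.card (Fin k ⊕ Fin k) = 2 * k`.
-/

namespace Vale.Agent.Lib.P037.Blow

private lemma eq_count {J : Type} [Fintype J] [DecidableEq J] (n : ℕ) {a b : J} (hab : a ≠ b) :
    (Finset.univ.filter (fun g : J → Fin n => g a = g b)).card * n ≤ n ^ Fintype.card J := by
  classical
  have h : ((Finset.univ.filter (fun g : J → Fin n => g a = g b)) ×ˢ
      (Finset.univ : Finset (Fin n))).card ≤ (Finset.univ : Finset (J → Fin n)).card := by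
    apply Finset.card_le_card_of_injOn (fun p => Function.update p.1 a p.2)
    · intro p _; simp
    · rintro ⟨g, x⟩ hg ⟨g', x'⟩ hg' heq
      simp only [Finset.coe_product, Finset.coe_filter, Finset.mem_univ, true_and,
        Finset.coe_univ, Set.mem_prod, Set.mem_setOf_eq, Set.mem_univ, and_true] at hg hg'
      simp only at heq
      have hx : x = x' := by
        have := congrFun heq a
        simpa using this
      have hj : ∀ j, j ≠ a → g j = g' j := by
        intro j hj
        have := congrFun heq j
        simpa [Function.update_of_ne hj] using this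
      have hgg : g = g' := by
        funext j
        by_cases hja : j = a
        · subst hja
          rw [hg, hg', hj b hab.symm]
        · exact hj j hja
      rw [hgg, hx]
  simpa [Finset.card_product] using h

theorem degenerate_count (k n : ℕ) :
    {g : (Fin k ⊕ Fin k) → Fin n |
        ¬ (Function.Injective (g ∘ Sum.inl) ∧ Function.Injective (g ∘ Sum.inr))}.ncard * n
      ≤ 2 * k ^ 2 * n ^ (2 * k) := by
  classical
  set P : Finset (Fin k × Fin k) := Finset.univ.filter (fun p => p.1 ≠ p.2) with hP
  set A : Fin k × Fin k → Finset ((Fin k ⊕ Fin k) → Fin n) :=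
    fun p => Finset.univ.filter (fun g => g (Sum.inl p.1) = g (Sum.inl p.2)) with hA
  set B : Fin k × Fin k → Finset ((Fin k ⊕ Fin k) → Fin n) :=
    fun p => Finset.univ.filter (fun g => g (Sum.inr p.1) = g (Sum.inr p.2)) with hB
  have hsub : {g : (Fin k ⊕ Fin k) → Fin n |
        ¬ (Function.Injective (g ∘ Sum.inl) ∧ Function.Injective (g ∘ Sum.inr))} ⊆
      ((P.biUnion A ∪ P.biUnion B : Finset _) : Set _) := by
    intro g hg
    simp only [Set.mem_setOf_eq, not_and_or, Function.Injective, not_forall] at hg
    simp only [Finset.coe_union, Finset.coe_biUnion, Set.mem_union, Set.mem_iUnion,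
      Finset.mem_coe]
    rcases hg with ⟨a, b, hab, hne⟩ | ⟨a, b, hab, hne⟩
    · left
      exact ⟨(a, b), by simp [hP, hne], by simpa [hA] using hab⟩
    · right
      exact ⟨(a, b), by simp [hP, hne], by simpa [hB] using hab⟩
  have hcard : {g : (Fin k ⊕ Fin k) → Fin n |
        ¬ (Function.Injective (g ∘ Sum.inl) ∧ Function.Injective (g ∘ Sum.inr))}.ncard ≤
      (P.biUnion A ∪ P.biUnion B).card := by
    rw [← Set.ncard_coe_finset]
    exact Set.ncard_le_ncard hsub (Finset.finite_toSet _)
  have hJ : Fintype.card (Fin k ⊕ Fin k) = 2 * k := by simp; ring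
  have hPc : P.card ≤ k ^ 2 := by
    calc P.card ≤ (Finset.univ : Finset (Fin k × Fin k)).card := Finset.card_filter_le _ _
      _ = k ^ 2 := by simp [sq]
  have hAs : (P.biUnion A).card * n ≤ k ^ 2 * n ^ (2 * k) := by
    calc (P.biUnion A).card * n ≤ (∑ p ∈ P, (A p).card) * n :=
          Nat.mul_le_mul_right _ Finset.card_biUnion_le
      _ = ∑ p ∈ P, (A p).card * n := by rw [Finset.sum_mul]
      _ ≤ ∑ _p ∈ P, n ^ (2 * k) := by
          apply Finset.sum_le_sum
          intro p hp
          have hne : p.1 ≠ p.2 := by simpa [hP] using hp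
          have := eq_count (J := Fin k ⊕ Fin k) n (a := Sum.inl p.1) (b := Sum.inl p.2)
            (by simpa using hne)
          rwa [hJ] at this
      _ = P.card * n ^ (2 * k) := by simp
      _ ≤ k ^ 2 * n ^ (2 * k) := Nat.mul_le_mul_right _ hPc
  have hBs : (P.biUnion B).card * n ≤ k ^ 2 * n ^ (2 * k) := by
    calc (P.biUnion B).card * n ≤ (∑ p ∈ P, (B p).card) * n :=
          Nat.mul_le_mul_right _ Finset.card_biUnion_le
      _ = ∑ p ∈ P, (B p).card * n := by rw [Finset.sum_mul]
      _ ≤ ∑ _p ∈ P, n ^ (2 * k) := by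
          apply Finset.sum_le_sum
          intro p hp
          have hne : p.1 ≠ p.2 := by simpa [hP] using hp
          have := eq_count (J := Fin k ⊕ Fin k) n (a := Sum.inr p.1) (b := Sum.inr p.2)
            (by simpa using hne)
          rwa [hJ] at this
      _ = P.card * n ^ (2 * k) := by simp
      _ ≤ k ^ 2 * n ^ (2 * k) := Nat.mul_le_mul_right _ hPc
  calc _ ≤ (P.biUnion A ∪ P.biUnion B).card * n := Nat.mul_le_mul_right _ hcard
    _ ≤ ((P.biUnion A).card + (P.biUnion B).card) * n :=
        Nat.mul_le_mul_right _ (Finset.card_union_le _ _)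
    _ = (P.biUnion A).card * n + (P.biUnion B).card * n := by ring
    _ ≤ k ^ 2 * n ^ (2 * k) + k ^ 2 * n ^ (2 * k) := Nat.add_le_add hAs hBs
    _ = 2 * k ^ 2 * n ^ (2 * k) := by ring

end Vale.Agent.Lib.P037.Blow
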