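import Mathlib

/-!
MODULE B2 (P037 blow-up closure).  FROZEN statement, (filled).  Pure finite counting
(Cauchy-Schwarz), independent of everything else.

STATEMENT.  `E` is a set of functions `J → X` that does not depend on the coordinate `j`.
Then the number `N` of `g ∈ E` such that also `update g j0 (g j) ∈ E` satisfies
`|E| ^ 2 ≤ |X| ^ |J| * N`.

ROUTE.  Write `g = (x, x', r)` with `x = g j0`, `x' = g j`, `r` = the other coordinates
(e.g. `Equiv.funSplitAt` / `Equiv.piSplitAt` twice, or `Equiv.piEquivPiSubtypeProd`).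
Put `d r = #{x | (x, *, r) ∈ E}` (independent of `*` by `hinv`).  Then `|E| = |X| * ∑ r, d r`,
`N = ∑ r, d r ^ 2`, the number of `r` is `|X| ^ (|J| - 2)`, and Cauchy-Schwarz
(`sq_sum_le_card_mul_sum_sq` / `inner_mul_le_norm_mul_norm`) gives
`(∑ r, d r) ^ 2 ≤ |X| ^ (|J| - 2) * ∑ r, d r ^ 2`.  Multiply by `|X| ^ 2`.

Alternative without splitting: with `e` the indicator of `E` and
`D g = #{x | update g j0 x ∈ E}` one has `∑ g, D g = |X| * |E|`,
`∑ g, D g ^ 2 = |X| ^ 2 * N` and Cauchy-Schwarz over all `g`.
-/

namespace Vale.Agent.Lib.P037.Blow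

theorem dup_count {J X : Type*} [Fintype J] [DecidableEq J] [Fintype X]
    (E : Set (J → X)) (j0 j : J) (hne : j0 ≠ j)
    (hinv : ∀ g ∈ E, ∀ x, Function.update g j x ∈ E) :
    E.ncard ^ 2 ≤ Fintype.card X ^ Fintype.card J *
      {g : J → X | g ∈ E ∧ Function.update g j0 (g j) ∈ E}.ncard := by
  classical
  let e : (J → X) → ℕ := fun g => if g ∈ E then 1 else 0
  have hinv' : ∀ g x, e (Function.update g j x) = e g := by
    intro g x
    by_cases hg : g ∈ E
    · simp [e, hg, hinv g hg x]
    · have h2 : Function.update g j x ∉ E := by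
        intro h
        apply hg
        have h3 := hinv _ h (g j)
        simpa using h3
      simp [e, hg, h2]
  have hE : E.ncard = ∑ g, e g := by
    simp only [e, Finset.sum_boole, Nat.cast_id]
    rw [← Set.ncard_coe_finset]
    congr 1
    ext g
    simp
  have hN : {g : J → X | g ∈ E ∧ Function.update g j0 (g j) ∈ E}.ncard =
      ∑ g, e g * e (Function.update g j0 (g j)) := by
    have h1 : ∀ g : J → X, e g * e (Function.update g j0 (g j)) =
        if (g ∈ E ∧ Function.update g j0 (g j) ∈ E) then 1 else 0 := by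
      intro g
      by_cases h1 : g ∈ E <;> by_cases h2 : Function.update g j0 (g j) ∈ E <;> simp [e, h1, h2]
    simp only [h1, Finset.sum_boole, Nat.cast_id]
    rw [← Set.ncard_coe_finset]
    congr 1
    ext g
    simp
  let D : (J → X) → ℕ := fun g => ∑ x, e (Function.update g j0 x)
  -- first moment
  have claim1 : ∑ g, D g = Fintype.card X * ∑ g, e g := by
    let Φ : (J → X) × X → (J → X) × X := fun p => (Function.update p.1 j0 p.2, p.1 j0)
    have hΦ : Function.Involutive Φ := by
      intro p
      simp [Φ]
    calc ∑ g, D g = ∑ p : (J → X) × X, e (Function.update p.1 j0 p.2) := by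
          rw [Fintype.sum_prod_type]
      _ = ∑ p : (J → X) × X, e ((hΦ.toPerm Φ p).1) := rfl
      _ = ∑ p : (J → X) × X, e p.1 := Equiv.sum_comp (hΦ.toPerm Φ) (fun p => e p.1)
      _ = ∑ g, ∑ _x : X, e g := by rw [Fintype.sum_prod_type]
      _ = Fintype.card X * ∑ g, e g := by
          simp [Finset.mul_sum]
  -- second moment
  have claim2 : ∑ g, D g ^ 2 =
      Fintype.card X ^ 2 * ∑ g, e g * e (Function.update g j0 (g j)) := by
    let Ψ : (J → X) × X × X → (J → X) × X × X := fun p =>
      (Function.update (Function.update p.1 j0 p.2.1) j p.2.2, p.1 j0, p.1 j)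
    have hΨ : Function.Involutive Ψ := by
      rintro ⟨g, x, x'⟩
      simp only [Ψ]
      refine Prod.ext ?_ (Prod.ext ?_ ?_)
      · funext i
        by_cases h1 : i = j
        · subst h1; simp
        · by_cases h2 : i = j0
          · subst h2; simp [h1]
          · simp [h1, h2]
      · simp [hne]
      · simp
    let Fn : (J → X) → ℕ := fun h => e h * e (Function.update h j0 (h j))
    have hF : ∀ p : (J → X) × X × X, Fn (Ψ p).1 =
        e (Function.update p.1 j0 p.2.1) * e (Function.update p.1 j0 p.2.2) := by
      rintro ⟨g, x, x'⟩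
      simp only [Fn, Ψ]
      rw [hinv']
      congr 1
      have h3 : Function.update (Function.update (Function.update g j0 x) j x') j0
          (Function.update (Function.update g j0 x) j x' j) =
          Function.update (Function.update g j0 x') j x' := by
        funext i
        by_cases h1 : i = j
        · subst h1; simp [hne.symm]
        · by_cases h2 : i = j0
          · subst h2; simp [h1]
          · simp [h1, h2]
      rw [h3, hinv']
    calc ∑ g, D g ^ 2
        = ∑ g, ∑ x, ∑ x', e (Function.update g j0 x) * e (Function.update g j0 x') := by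
          refine Finset.sum_congr rfl (fun g _ => ?_)
          simp only [D, sq, Finset.sum_mul_sum]
      _ = ∑ p : (J → X) × X × X,
            e (Function.update p.1 j0 p.2.1) * e (Function.update p.1 j0 p.2.2) := by
          rw [Fintype.sum_prod_type]
          refine Finset.sum_congr rfl (fun g _ => ?_)
          rw [Fintype.sum_prod_type]
      _ = ∑ p : (J → X) × X × X, Fn ((hΨ.toPerm Ψ p).1) := by
          refine Finset.sum_congr rfl (fun p _ => ?_)
          exact (hF p).symm
      _ = ∑ p : (J → X) × X × X, Fn p.1 := Equiv.sum_comp (hΨ.toPerm Ψ) (fun p => Fn p.1)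
      _ = ∑ g, ∑ _q : X × X, Fn g := by rw [Fintype.sum_prod_type]
      _ = Fintype.card X ^ 2 * ∑ g, e g * e (Function.update g j0 (g j)) := by
          simp [Finset.mul_sum, Fn, sq]
  have hCS : (∑ g, D g) ^ 2 ≤ Fintype.card (J → X) * ∑ g, D g ^ 2 := by
    have := sq_sum_le_card_mul_sum_sq (s := (Finset.univ : Finset (J → X))) (f := D)
    simpa using this
  rw [claim1, claim2, Fintype.card_fun, ← hE, ← hN] at hCS
  rcases Nat.eq_zero_or_pos (Fintype.card X) with h0 | hpos
  · have : IsEmpty X := Fintype.card_eq_zero_iff.1 h0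
    have hemp : IsEmpty (J → X) := ⟨fun g => this.elim (g j0)⟩
    have : E = ∅ := Set.eq_empty_of_isEmpty E
    simp [this]
  · have h5 : Fintype.card X ^ 2 * E.ncard ^ 2 ≤ Fintype.card X ^ 2 *
        (Fintype.card X ^ Fintype.card J *
          {g : J → X | g ∈ E ∧ Function.update g j0 (g j) ∈ E}.ncard) := by
      calc Fintype.card X ^ 2 * E.ncard ^ 2 = (Fintype.card X * E.ncard) ^ 2 := by ring
        _ ≤ _ := hCS
        _ = _ := by ring
    exact Nat.le_of_mul_le_mul_left h5 (pow_pos hpos 2)

end Vale.Agent.Lib.P037.Blow
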