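import Vale.Agent.Lib.P037.Blow.Defs
import Vale.Agent.Lib.P037.Blow.DupCount
import Vale.Agent.Lib.P037.Blow.BaseCount

/-!
MODULE B4 (P037 blow-up closure).  FROZEN statement, proved by helper9 (uses `dup_count` of B2 and
`base_count` of B3 as black boxes).

STATEMENT (supersaturation for complete multipartite configurations).  If `C ⊆ (I → X)` has
density at least `δ`, then `GS Φ C univ ⊆ (J → X)` has density at least `δ ^ (2 ^ (|J| - |I|))`.

ROUTE.  Let `σ0 := Function.surjInv hΦ` (a section, injective), `S0 := Set.range σ0`, `N := |X|`.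
Claim: for every finset `T` of `J` disjoint from `S0`:
    `δ ^ (2 ^ T.card) * N ^ |J| ≤ (GS Φ C (S0 ∪ T)).ncard`.
* `T = ∅`: the only section with values in `S0` is `σ0` (if `σ i = σ0 i'` then
  `i = Φ (σ i) = Φ (σ0 i') = i'`), so `GS Φ C S0 = {g | g ∘ σ0 ∈ C}`; `base_count` gives
  `ncard * N ^ |I| = C.ncard * N ^ |J| ≥ δ * N ^ |I| * N ^ |J|`; cancel `N ^ |I| > 0`.
* step `T → insert j T` (`j ∉ T`, `j ∉ S0`): put `S := S0 ∪ T`, `E := GS Φ C S`, `j0 := σ0 (Φ j) ∈ S0`,
  so `j0 ≠ j` and `Φ j0 = Φ j`.
  (a) `E` does not depend on coordinate `j`: sections with values in `S` avoid `j`, so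
      `(update g j x) ∘ σ = g ∘ σ`.
  (b) `{g | g ∈ E ∧ update g j0 (g j) ∈ E} ⊆ GS Φ C (S ∪ {j})`: let `σ` be a section with values in
      `S ∪ {j}`.  If `σ (Φ j) ≠ j` then all values lie in `S` (for `i ≠ Φ j`, `σ i ≠ j` because
      `Φ (σ i) = i`).  If `σ (Φ j) = j`, let `σ' := update σ (Φ j) j0`: a section with values in `S`, and
      `(update g j0 (g j)) ∘ σ' = g ∘ σ` (at `i ≠ Φ j`: `σ i ≠ j0` since `Φ (σ i) = i ≠ Φ j0`).
  (c) `dup_count`: `E.ncard ^ 2 ≤ N ^ |J| * (...)`.  With `E.ncard ≥ δ ^ (2 ^ t) * N ^ |J|`: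
      `(δ ^ (2 ^ t)) ^ 2 * (N ^ |J|) ^ 2 ≤ N ^ |J| * ncard`, cancel `N ^ |J| > 0`;
      `(δ ^ (2 ^ t)) ^ 2 = δ ^ (2 ^ (t + 1))`.
* finally `T := (Finset.univ.filter (· ∉ S0))`, `S0 ∪ T = univ`, `T.card = |J| - |I|`
  (`Set.range σ0` has `|I|` elements because `σ0` is injective).
-/

namespace Vale.Agent.Lib.P037.Blow

theorem GS_dens {I J X : Type*} [Fintype I] [Fintype J] [Fintype X] [Nonempty X]
    (Φ : J → I) (hΦ : Function.Surjective Φ) (C : Set (I → X)) (δ : ℝ) (hδ0 : 0 ≤ δ)
    (hδ : δ * (Fintype.card X : ℝ) ^ Fintype.card I ≤ (C.ncard : ℝ)) :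
    δ ^ (2 ^ (Fintype.card J - Fintype.card I)) * (Fintype.card X : ℝ) ^ Fintype.card J
      ≤ ((GS Φ C Set.univ).ncard : ℝ) := by
  classical
  set σ0 := Function.surjInv hΦ with hσ0
  have hsec : ∀ i, Φ (σ0 i) = i := Function.surjInv_eq hΦ
  have hinj : Function.Injective σ0 := Function.injective_surjInv hΦ
  set N : ℝ := (Fintype.card X : ℝ) with hN
  have hNpos : 0 < N := Nat.cast_pos.mpr Fintype.card_pos
  have hpI : 0 < N ^ Fintype.card I := pow_pos hNpos _
  have hpJ : 0 < N ^ Fintype.card J := pow_pos hNpos _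
  have key : ∀ T : Finset J, (∀ j ∈ T, j ∉ Set.range σ0) →
      δ ^ (2 ^ T.card) * N ^ Fintype.card J ≤ ((GS Φ C (Set.range σ0 ∪ ↑T)).ncard : ℝ) := by
    intro T
    induction T using Finset.induction_on with
    | empty =>
      intro _
      have hEq : GS Φ C (Set.range σ0 ∪ ↑(∅ : Finset J)) = {g : J → X | g ∘ σ0 ∈ C} := by
        ext g
        simp only [GS, Set.mem_ofPred_eq, Finset.coe_empty, Set.union_empty]
        constructor
        · intro h; exact h σ0 hsec (fun i => ⟨i, rfl⟩)
        · intro h σ hσ hσS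
          have : σ = σ0 := by
            funext i
            obtain ⟨i', hi'⟩ := hσS i
            have : i' = i := by rw [← hsec i', hi', hσ i]
            rw [← hi', this]
          rw [this]; exact h
      rw [hEq]
      have hb := base_count σ0 hinj C
      have hb' : (({g : J → X | g ∘ σ0 ∈ C}.ncard : ℝ)) * N ^ Fintype.card I
          = (C.ncard : ℝ) * N ^ Fintype.card J := by rw [hN]; exact_mod_cast hb
      simp only [Finset.card_empty, pow_zero, pow_one]
      refine le_of_mul_le_mul_right ?_ hpI
      rw [hb']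
      calc δ * N ^ Fintype.card J * N ^ Fintype.card I
          = (δ * N ^ Fintype.card I) * N ^ Fintype.card J := by ring
        _ ≤ _ := mul_le_mul_of_nonneg_right hδ hpJ.le
    | insert j T hjT ih =>
      intro hT
      have hj0 : j ∉ Set.range σ0 := hT j (Finset.mem_insert_self _ _)
      have ihT := ih (fun j' hj' => hT j' (Finset.mem_insert_of_mem hj'))
      set S : Set J := Set.range σ0 ∪ ↑T with hS
      have hjS : j ∉ S := by
        rintro (h | h)
        · exact hj0 h
        · exact hjT (by simpa using h)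
      set E := GS Φ C S with hE
      set j0 := σ0 (Φ j) with hj0def
      have hj0S : j0 ∈ S := Or.inl ⟨_, rfl⟩
      have hne : j0 ≠ j := fun h => hjS (h ▸ hj0S)
      have hΦj0 : Φ j0 = Φ j := hsec _
      have hinv : ∀ g ∈ E, ∀ x, Function.update g j x ∈ E := by
        intro g hg x σ hσ hσS
        have : Function.update g j x ∘ σ = g ∘ σ := by
          funext i
          simp only [Function.comp]
          rw [Function.update_of_ne]
          intro h; exact hjS (h ▸ hσS i)
        rw [this]; exact hg σ hσ hσS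
      have hsub : {g : J → X | g ∈ E ∧ Function.update g j0 (g j) ∈ E}
          ⊆ GS Φ C (Set.range σ0 ∪ ↑(insert j T)) := by
        rintro g ⟨hg1, hg2⟩ σ hσ hσS
        have hσS' : ∀ i, σ i ∈ S ∨ σ i = j := by
          intro i
          rcases hσS i with h | h
          · exact Or.inl (Or.inl h)
          · rw [Finset.coe_insert] at h
            rcases h with h | h
            · exact Or.inr h
            · exact Or.inl (Or.inr h)
        by_cases hc : σ (Φ j) = j
        · have h1 := hg2 (Function.update σ (Φ j) j0) (by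
            intro i
            by_cases hi : i = Φ j
            · rw [hi, Function.update_self, hΦj0]
            · rw [Function.update_of_ne hi]; exact hσ i) (by
            intro i
            by_cases hi : i = Φ j
            · rw [hi, Function.update_self]; exact hj0S
            · rw [Function.update_of_ne hi]
              rcases hσS' i with h | h
              · exact h
              · exact absurd (by rw [← hσ i, h]) hi)
          have : Function.update g j0 (g j) ∘ Function.update σ (Φ j) j0 = g ∘ σ := by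
            funext i
            by_cases hi : i = Φ j
            · rw [hi]
              simp only [Function.comp, Function.update_self, hc]
            · simp only [Function.comp, Function.update_of_ne hi]
              rw [Function.update_of_ne]
              intro h
              apply hi
              rw [← hσ i, h, hΦj0]
          rwa [this] at h1
        · apply hg1 σ hσ
          intro i
          rcases hσS' i with h | h
          · exact h
          · exfalso; apply hc
            have : i = Φ j := by rw [← hσ i, h]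
            rw [← this, h]
      have hd := dup_count E j0 j hne hinv
      have hd' : ((E.ncard : ℝ)) ^ 2 ≤ N ^ Fintype.card J *
          (({g : J → X | g ∈ E ∧ Function.update g j0 (g j) ∈ E}.ncard : ℕ) : ℝ) := by
        rw [hN]; exact_mod_cast hd
      have hmono : (({g : J → X | g ∈ E ∧ Function.update g j0 (g j) ∈ E}.ncard : ℕ) : ℝ)
          ≤ ((GS Φ C (Set.range σ0 ∪ ↑(insert j T))).ncard : ℝ) := by
        exact_mod_cast Set.ncard_le_ncard hsub (Set.toFinite _)
      rw [Finset.card_insert_of_notMem hjT]
      have hnn : 0 ≤ δ ^ (2 ^ T.card) * N ^ Fintype.card J :=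
        mul_nonneg (pow_nonneg hδ0 _) hpJ.le
      have hsq : (δ ^ (2 ^ T.card) * N ^ Fintype.card J) ^ 2 ≤ ((E.ncard : ℝ)) ^ 2 :=
        pow_le_pow_left₀ hnn ihT 2
      refine le_of_mul_le_mul_left ?_ hpJ
      calc N ^ Fintype.card J * (δ ^ (2 ^ (T.card + 1)) * N ^ Fintype.card J)
          = (δ ^ (2 ^ T.card) * N ^ Fintype.card J) ^ 2 := by
            rw [pow_succ 2 T.card, pow_mul]; ring
        _ ≤ ((E.ncard : ℝ)) ^ 2 := hsq
        _ ≤ _ := hd'
        _ ≤ _ := mul_le_mul_of_nonneg_left hmono hpJ.le
  have hfin := key (Finset.univ.image σ0)ᶜ (by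
    intro j hj hr
    rw [Finset.mem_compl] at hj
    obtain ⟨i, rfl⟩ := hr
    exact hj (Finset.mem_image_of_mem _ (Finset.mem_univ _)))
  have hU : Set.range σ0 ∪ ↑((Finset.univ.image σ0)ᶜ) = Set.univ := by
    ext j
    simp only [Set.mem_union, Set.mem_range, Finset.coe_compl, Finset.coe_image,
      Finset.coe_univ, Set.image_univ, Set.mem_compl_iff, Set.mem_univ, iff_true]
    exact em _
  have hcard : ((Finset.univ.image σ0)ᶜ).card = Fintype.card J - Fintype.card I := by
    rw [Finset.card_compl, Finset.card_image_of_injective _ hinj, Finset.card_univ]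
  rw [hU, hcard] at hfin
  exact hfin

end Vale.Agent.Lib.P037.Blow
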