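import Vale.Agent.Lib.P037.Blow.FarMono
import Vale.Agent.Lib.P037.Blow.Induct
import Vale.Agent.Lib.P037.Blow.Degenerate
import Vale.Agent.Lib.P037.Blow.Sort
import Vale.Agent.Lib.P037.AllTwo

/-!
P037 blow-up closure: assembly.
-/

namespace Vale.Agent.Lib.P037.Blow

open Vale.Agent.Lib.P037

/-- counting core: many copies of `H0` force many copies of the blow-up, up to degenerate
configurations. -/
theorem count_core {k0 k n : ℕ} (hn : 1 ≤ n) (H0 : Fin k0 → Fin k0 → Bool)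
    (φ ψ : Fin k → Fin k0) (hφ : Monotone φ) (hφs : Function.Surjective φ) (hψ : Monotone ψ)
    (hψs : Function.Surjective ψ) (A : Fin n → Fin n → Bool) (δ : ℝ) (hδ0 : 0 ≤ δ)
    (hδ : δ * (n : ℝ) ^ (2 * k0) ≤ (numCopies H0 A : ℝ)) :
    δ ^ (2 ^ (2 * k - 2 * k0)) * (n : ℝ) ^ (2 * k) * n
      ≤ ((k.factorial : ℝ) ^ 2 * (numCopies (blow H0 φ ψ) A : ℝ)) * n
        + 2 * (k : ℝ) ^ 2 * (n : ℝ) ^ (2 * k) := by
  have : Nonempty (Fin n) := ⟨⟨0, hn⟩⟩
  have hsurj : Function.Surjective (Sum.map φ ψ) := Function.Surjective.sumMap hφs hψs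
  have hcardI : Fintype.card (Fin k0 ⊕ Fin k0) = 2 * k0 := by
    simp [two_mul]
  have hcardJ : Fintype.card (Fin k ⊕ Fin k) = 2 * k := by
    simp [two_mul]
  have h1 := GS_dens (X := Fin n) (Sum.map φ ψ) hsurj (copySet H0 A) δ hδ0
    (by rw [hcardI, copySet_ncard, Fintype.card_fin]; exact hδ)
  rw [hcardI, hcardJ, Fintype.card_fin] at h1
  set G := GS (Sum.map φ ψ) (copySet H0 A) Set.univ with hG
  set G1 := {g : (Fin k ⊕ Fin k) → Fin n | g ∈ G ∧
        (Function.Injective (g ∘ Sum.inl) ∧ Function.Injective (g ∘ Sum.inr))} with hG1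
  set G2 := {g : (Fin k ⊕ Fin k) → Fin n |
        ¬ (Function.Injective (g ∘ Sum.inl) ∧ Function.Injective (g ∘ Sum.inr))} with hG2
  have hsub : G ⊆ G1 ∪ G2 := by
    intro g hg
    by_cases hh : (Function.Injective (g ∘ Sum.inl) ∧ Function.Injective (g ∘ Sum.inr))
    · exact Or.inl ⟨hg, hh⟩
    · exact Or.inr hh
  have h2 : G.ncard ≤ G1.ncard + G2.ncard :=
    (Set.ncard_le_ncard hsub (Set.toFinite _)).trans (Set.ncard_union_le _ _)
  have h3 : G1.ncard ≤ (k.factorial) ^ 2 * numCopies (blow H0 φ ψ) A :=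
    sorted_count H0 φ ψ hφ hφs hψ hψs A
  have h4 : G2.ncard * n ≤ 2 * k ^ 2 * n ^ (2 * k) := degenerate_count k n
  have h2' : (G.ncard : ℝ) ≤ (G1.ncard : ℝ) + (G2.ncard : ℝ) := by exact_mod_cast h2
  have h3' : (G1.ncard : ℝ) ≤ (k.factorial : ℝ) ^ 2 * (numCopies (blow H0 φ ψ) A : ℝ) := by
    exact_mod_cast h3
  have h4' : (G2.ncard : ℝ) * n ≤ 2 * (k : ℝ) ^ 2 * (n : ℝ) ^ (2 * k) := by exact_mod_cast h4
  have hn0 : (0 : ℝ) ≤ n := Nat.cast_nonneg n
  calc δ ^ (2 ^ (2 * k - 2 * k0)) * (n : ℝ) ^ (2 * k) * n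
      ≤ (G.ncard : ℝ) * n := mul_le_mul_of_nonneg_right h1 hn0
    _ ≤ ((G1.ncard : ℝ) + (G2.ncard : ℝ)) * n := mul_le_mul_of_nonneg_right h2' hn0
    _ = (G1.ncard : ℝ) * n + (G2.ncard : ℝ) * n := by ring
    _ ≤ _ := add_le_add (mul_le_mul_of_nonneg_right h3' hn0) h4'

/-- the final arithmetic -/
theorem final_arith (k : ℕ) (x F N n : ℝ) (hx0 : 0 < x) (hx1 : x ≤ 1) (hF : 1 ≤ F) (hN : 1 ≤ N)
    (hn : 1 ≤ n)
    (h : x * n ^ (2 * k) * n ≤ (F * N) * n + 2 * (k : ℝ) ^ 2 * n ^ (2 * k)) :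
    x ^ (2 * k + 1) / (2 * F * (4 * (k : ℝ) ^ 2 + 1) ^ (2 * k)) * n ^ (2 * k) ≤ N := by
  set K : ℝ := 4 * (k : ℝ) ^ 2 + 1 with hK
  have hK1 : 1 ≤ K := by
    have : 0 ≤ (k : ℝ) ^ 2 := by positivity
    linarith
  have hK0 : 0 < K := by linarith
  have hn0 : 0 < n := by linarith
  have hF0 : 0 < F := by linarith
  have hKm : 1 ≤ K ^ (2 * k) := one_le_pow₀ hK1
  have hnm : 0 < n ^ (2 * k) := by positivity
  have hden : 0 < 2 * F * K ^ (2 * k) := by positivity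
  rw [div_mul_eq_mul_div, div_le_iff₀ hden]
  by_cases hc : K ≤ x * n
  · -- large n
    have h5 : 2 * (k : ℝ) ^ 2 * n ^ (2 * k) ≤ x * n ^ (2 * k) * n / 2 := by
      have : 4 * (k : ℝ) ^ 2 ≤ x * n := by linarith
      nlinarith [mul_le_mul_of_nonneg_right this hnm.le]
    have h6 : x * n ^ (2 * k) * n / 2 ≤ (F * N) * n := by linarith
    have h7 : x * n ^ (2 * k) ≤ 2 * (F * N) := by
      have : x * n ^ (2 * k) * n ≤ (2 * (F * N)) * n := by linarith
      exact le_of_mul_le_mul_right this hn0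
    have h8 : x ^ (2 * k + 1) ≤ x := by
      calc x ^ (2 * k + 1) = x ^ (2 * k) * x := pow_succ x (2 * k)
        _ ≤ 1 * x := mul_le_mul_of_nonneg_right (pow_le_one₀ hx0.le hx1) hx0.le
        _ = x := one_mul x
    calc x ^ (2 * k + 1) * n ^ (2 * k) ≤ x * n ^ (2 * k) :=
          mul_le_mul_of_nonneg_right h8 hnm.le
      _ ≤ 2 * (F * N) := h7
      _ = N * (2 * F * 1) := by ring
      _ ≤ N * (2 * F * K ^ (2 * k)) := by
          apply mul_le_mul_of_nonneg_left _ (by linarith)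
          apply mul_le_mul_of_nonneg_left hKm (by linarith)
  · -- small n
    rw [not_le] at hc
    have h9 : (x * n) ^ (2 * k) ≤ K ^ (2 * k) :=
      pow_le_pow_left₀ (by positivity) hc.le _
    calc x ^ (2 * k + 1) * n ^ (2 * k) = x * (x * n) ^ (2 * k) := by
          rw [mul_pow, pow_succ]; ring
      _ ≤ 1 * K ^ (2 * k) := mul_le_mul hx1 h9 (by positivity) (by norm_num)
      _ = 1 * (1 * 1 * K ^ (2 * k)) := by ring
      _ ≤ N * (2 * F * K ^ (2 * k)) := by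
          apply mul_le_mul hN _ (by positivity) (by linarith)
          apply mul_le_mul_of_nonneg_right _ (by positivity)
          nlinarith

/-- **Blow-up closure.**  If `H0` has the polynomial removal property then so has each of its
ordered blow-ups. -/
theorem polyRemoval_blow {k0 k : ℕ} (H0 : Fin k0 → Fin k0 → Bool) (φ ψ : Fin k → Fin k0)
    (hφ : Monotone φ) (hφs : Function.Surjective φ) (hψ : Monotone ψ)
    (hψs : Function.Surjective ψ) (h : PolyRemoval H0) : PolyRemoval (blow H0 φ ψ) := by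
  obtain ⟨c0, C0, hc0, hC0, hrem⟩ := h
  set c1 : ℝ := min c0 1 with hc1
  have hc1pos : 0 < c1 := lt_min hc0 one_pos
  have hc1le : c1 ≤ 1 := min_le_right _ _
  have hc1c0 : c1 ≤ c0 := min_le_left _ _
  set Q : ℕ := 2 ^ (2 * k - 2 * k0) with hQ
  have hQpos : 0 < Q := by positivity
  set M : ℕ := Q * (2 * k + 1) with hM
  have hMpos : 0 < M := by positivity
  set F : ℝ := (k.factorial : ℝ) ^ 2 with hF
  have hF1 : 1 ≤ F := by
    have : (1 : ℝ) ≤ (k.factorial : ℝ) := by exact_mod_cast Nat.succ_le_of_lt k.factorial_pos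
    exact one_le_pow₀ this
  refine ⟨c1 ^ M / (2 * F * (4 * (k : ℝ) ^ 2 + 1) ^ (2 * k)), C0 * M, by positivity,
    by positivity, ?_⟩
  intro n hn ε hε hε1 A hfar
  have hfar0 : IsFar H0 A ε := isFar_of_blow H0 φ ψ hφ hφs hψ hψs A ε hfar
  have hN0 := hrem n hn ε hε hε1 A hfar0
  have hN1 : 1 ≤ numCopies (blow H0 φ ψ) A :=
    one_le_numCopies_of_isFar _ A ε hn hε hfar
  set δ : ℝ := c1 * ε ^ C0 with hδ
  have hεC : 0 < ε ^ C0 := Real.rpow_pos_of_pos hε C0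
  have hεC1 : ε ^ C0 ≤ 1 := Real.rpow_le_one hε.le hε1.le hC0.le
  have hδpos : 0 < δ := by positivity
  have hδ1 : δ ≤ 1 := by
    calc δ = c1 * ε ^ C0 := rfl
      _ ≤ 1 * 1 := mul_le_mul hc1le hεC1 hεC.le (by norm_num)
      _ = 1 := by norm_num
  have hδN : δ * (n : ℝ) ^ (2 * k0) ≤ (numCopies H0 A : ℝ) := by
    refine le_trans ?_ hN0
    apply mul_le_mul_of_nonneg_right _ (by positivity)
    exact mul_le_mul_of_nonneg_right hc1c0 hεC.le
  have hcore := count_core hn H0 φ ψ hφ hφs hψ hψs A δ hδpos.le hδN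
  have hfin := final_arith k (δ ^ Q) F (numCopies (blow H0 φ ψ) A : ℝ) (n : ℝ)
    (by positivity) (pow_le_one₀ hδpos.le hδ1) hF1 (by exact_mod_cast hN1)
    (by exact_mod_cast hn) hcore
  have hpow : c1 ^ M * ε ^ (C0 * (M : ℝ)) = (δ ^ Q) ^ (2 * k + 1) := by
    rw [Real.rpow_mul hε.le, Real.rpow_natCast, ← mul_pow, ← pow_mul]
  calc c1 ^ M / (2 * F * (4 * (k : ℝ) ^ 2 + 1) ^ (2 * k)) * ε ^ (C0 * (M : ℝ)) * (n : ℝ) ^ (2 * k)
      = (δ ^ Q) ^ (2 * k + 1) / (2 * F * (4 * (k : ℝ) ^ 2 + 1) ^ (2 * k)) * (n : ℝ) ^ (2 * k) := by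
        rw [← hpow]; ring
    _ ≤ _ := hfin

/-- Q1 for every `k × k` pattern that is constant on the four blocks cut out by a row cut `s`
and a column cut `t`. -/
theorem polyRemoval_block {k : ℕ} (H : Fin k → Fin k → Bool) (s t : ℕ) (hs0 : 0 < s) (hsk : s < k)
    (ht0 : 0 < t) (htk : t < k)
    (hH : ∀ i i' j j' : Fin k, (i.val < s ↔ i'.val < s) → (j.val < t ↔ j'.val < t) →
      H i j = H i' j') : PolyRemoval H := by
  have hk : 0 < k := by omega
  have key : ∀ u : ℕ, 0 < u → ∀ hu : u < k,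
      ∃ (f : Fin k → Fin 2) (r : Fin 2 → Fin k), Monotone f ∧ Function.Surjective f ∧
        ∀ i : Fin k, (i.val < u ↔ (r (f i)).val < u) := by
    intro u hu0 hu
    refine ⟨fun i => if i.val < u then 0 else 1,
      fun a => if a = 0 then ⟨0, hk⟩ else ⟨u, hu⟩, ?_, ?_, ?_⟩
    · intro i j hij
      have hij' : i.val ≤ j.val := hij
      by_cases hj : j.val < u
      · have hi : i.val < u := lt_of_le_of_lt hij' hj
        simp [hi, hj]
      · simp only [hj, if_false]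
        exact Fin.le_last _
    · intro a
      fin_cases a
      · exact ⟨⟨0, hk⟩, by simp [hu0]⟩
      · exact ⟨⟨u, hu⟩, by simp⟩
    · intro i
      by_cases hi : i.val < u
      · simp [hi, hu0]
      · simp [hi]
  obtain ⟨φ, r, hφ, hφs, hr⟩ := key s hs0 hsk
  obtain ⟨ψ, r', hψ, hψs, hr'⟩ := key t ht0 htk
  have hEq : H = blow (fun a b => H (r a) (r' b)) φ ψ := by
    funext i j
    exact hH i (r (φ i)) j (r' (ψ j)) (hr i) (hr' j)
  rw [hEq]
  exact polyRemoval_blow _ φ ψ hφ hφs hψ hψs (polyRemoval_two _)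

end Vale.Agent.Lib.P037.Blow
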